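import Vale.Agent.H90.KTV.Defs

namespace Vale.Agent.H18

open Vale.Agent.H90 Finset

/-- Splitting a sum over a fintype at two distinct points. -/
theorem sum_split_two {I : Type*} [Fintype I] [DecidableEq I] (g : I → ℝ) (i j : I)
    (hij : i ≠ j) :
    ∑ k, g k = g i + g j + ∑ k, (if k ≠ i ∧ k ≠ j then g k else 0) := by
  have h1 : ∀ k, g k = (if k = i then g k else 0) + (if k = j then g k else 0)
      + (if k ≠ i ∧ k ≠ j then g k else 0) := by
    intro k
    by_cases h : k = i
    · subst h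
      simp [hij]
    · by_cases h' : k = j
      · subst h'
        simp [h]
      · simp [h, h']
  calc ∑ k, g k = ∑ k, ((if k = i then g k else 0) + (if k = j then g k else 0)
      + (if k ≠ i ∧ k ≠ j then g k else 0)) := Finset.sum_congr rfl (fun k _ => h1 k)
    _ = g i + g j + ∑ k, (if k ≠ i ∧ k ≠ j then g k else 0) := by
      rw [Finset.sum_add_distrib, Finset.sum_add_distrib, Finset.sum_ite_eq', Finset.sum_ite_eq']
      simp

/-- Cyclic rotation of a triple sum. -/
theorem sum_rot3 {I : Type*} [Fintype I] (f : I → I → I → ℝ) :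
    ∑ i, ∑ j, ∑ k, f j k i = ∑ i, ∑ j, ∑ k, f i j k := by
  rw [Finset.sum_comm]
  refine Finset.sum_congr rfl (fun j _ => ?_)
  rw [Finset.sum_comm]

/-- Swapping the first two variables of a triple sum. -/
theorem sum_swap12 {I : Type*} [Fintype I] (f : I → I → I → ℝ) :
    ∑ i, ∑ j, ∑ k, f j i k = ∑ i, ∑ j, ∑ k, f i j k := by
  rw [Finset.sum_comm]

theorem comb_triple {I : Type*} [Fintype I] [DecidableEq I] (a : I → I → I → I → ℝ)
    (hs1 : ∀ i j k l, a i j k l = a j i k l) (hs2 : ∀ i j k l, a i j k l = a i j l k)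
    (hdisj : ∀ i j k l, i ≠ j → k ≠ l → i ≠ k → i ≠ l → j ≠ k → j ≠ l → 0 ≤ a i j k l)
    (htri : ∀ i j k, i ≠ j → j ≠ k → i ≠ k → 0 ≤ a i j j k + a j k k i + a k i i j) :
    2 * ∑ i, ∑ j, (if i ≠ j then a i j i j else 0) ≤
      ∑ i, ∑ j, ∑ k, ∑ l, (if i ≠ j ∧ k ≠ l then a i j k l else 0) := by
  classical
  -- the triple sum S3 and its nonnegativity
  set φ : I → I → I → ℝ := fun i j k => if i ≠ j ∧ j ≠ k ∧ i ≠ k then a i j j k else 0 with hφ
  have hS3 : 0 ≤ ∑ i, ∑ j, ∑ k, φ i j k := by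
    have h3 : 3 * ∑ i, ∑ j, ∑ k, φ i j k
        = ∑ i, ∑ j, ∑ k, (φ i j k + φ j k i + φ k i j) := by
      have r1 : ∑ i, ∑ j, ∑ k, φ j k i = ∑ i, ∑ j, ∑ k, φ i j k := sum_rot3 φ
      have r2 : ∑ i, ∑ j, ∑ k, φ k i j = ∑ i, ∑ j, ∑ k, φ j k i :=
        sum_rot3 (fun i j k => φ j k i)
      simp only [Finset.sum_add_distrib]
      rw [r2, r1]
      ring
    have hpos : 0 ≤ ∑ i, ∑ j, ∑ k, (φ i j k + φ j k i + φ k i j) := by
      refine Finset.sum_nonneg (fun i _ => Finset.sum_nonneg (fun j _ =>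
        Finset.sum_nonneg (fun k _ => ?_)))
      by_cases hD : i ≠ j ∧ j ≠ k ∧ i ≠ k
      · obtain ⟨h1, h2, h3'⟩ := hD
        have e1 : φ i j k = a i j j k := by simp [hφ, h1, h2, h3']
        have e2 : φ j k i = a j k k i := by
          simp [hφ, h2, Ne.symm h3', Ne.symm h1]
        have e3 : φ k i j = a k i i j := by
          simp [hφ, Ne.symm h3', h1, Ne.symm h2]
        rw [e1, e2, e3]
        exact htri i j k h1 h2 h3'
      · have e1 : φ i j k = 0 := by simp only [hφ]; rw [if_neg hD]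
        have e2 : φ j k i = 0 := by
          simp only [hφ]
          rw [if_neg]
          rintro ⟨h2, h3', h1⟩
          exact hD ⟨Ne.symm h1, h2, Ne.symm h3'⟩
        have e3 : φ k i j = 0 := by
          simp only [hφ]
          rw [if_neg]
          rintro ⟨h3', h1, h2⟩
          exact hD ⟨h1, Ne.symm h2, Ne.symm h3'⟩
        rw [e1, e2, e3]
        simp
    nlinarith [h3, hpos]
  -- lower bound for the inner double sum at a fixed pair i ≠ j
  have hF : ∀ i j, i ≠ j →
      2 * a i j i j + ∑ l, (2 * φ i j l + 2 * φ j i l)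
        ≤ ∑ k, ∑ l, (if k ≠ l then a i j k l else 0) := by
    intro i j hij
    have hji : j ≠ i := Ne.symm hij
    rw [sum_split_two (fun k => ∑ l, (if k ≠ l then a i j k l else 0)) i j hij]
    -- G i
    have hGi : ∑ l, (if i ≠ l then a i j i l else 0)
        = a i j i j + ∑ l, (if l ≠ i ∧ l ≠ j then a i j i l else 0) := by
      rw [sum_split_two (fun l => if i ≠ l then a i j i l else 0) i j hij]
      simp only [ne_eq, not_true_eq_false, if_false, zero_add]
      rw [if_pos hij]
      congr 1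
      refine Finset.sum_congr rfl (fun l _ => ?_)
      by_cases h : l ≠ i ∧ l ≠ j
      · rw [if_pos h, if_pos h, if_pos (Ne.symm h.1)]
      · rw [if_neg h, if_neg h]
    have hGj : ∑ l, (if j ≠ l then a i j j l else 0)
        = a i j j i + ∑ l, (if l ≠ i ∧ l ≠ j then a i j j l else 0) := by
      rw [sum_split_two (fun l => if j ≠ l then a i j j l else 0) i j hij]
      simp only [ne_eq, not_true_eq_false, if_false, add_zero]
      rw [if_pos hji]
      congr 1
      refine Finset.sum_congr rfl (fun l _ => ?_)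
      by_cases h : l ≠ i ∧ l ≠ j
      · rw [if_pos h, if_pos h, if_pos (Ne.symm h.2)]
      · rw [if_neg h, if_neg h]
    have hGk : ∀ k, k ≠ i ∧ k ≠ j →
        a i j k i + a i j k j ≤ ∑ l, (if k ≠ l then a i j k l else 0) := by
      intro k hk
      rw [sum_split_two (fun l => if k ≠ l then a i j k l else 0) i j hij]
      rw [if_pos hk.1, if_pos hk.2]
      have : 0 ≤ ∑ l, (if l ≠ i ∧ l ≠ j then (if k ≠ l then a i j k l else 0) else 0) := by
        refine Finset.sum_nonneg (fun l _ => ?_)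
        by_cases h : l ≠ i ∧ l ≠ j
        · rw [if_pos h]
          by_cases hkl : k ≠ l
          · rw [if_pos hkl]
            exact hdisj i j k l hij hkl (Ne.symm hk.1) (Ne.symm h.1) (Ne.symm hk.2) (Ne.symm h.2)
          · rw [if_neg hkl]
        · rw [if_neg h]
      linarith
    have hrest : ∑ k, (if k ≠ i ∧ k ≠ j then (a i j k i + a i j k j) else 0)
        ≤ ∑ k, (if k ≠ i ∧ k ≠ j then ∑ l, (if k ≠ l then a i j k l else 0) else 0) := by
      refine Finset.sum_le_sum (fun k _ => ?_)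
      by_cases h : k ≠ i ∧ k ≠ j
      · rw [if_pos h, if_pos h]
        exact hGk k h
      · rw [if_neg h, if_neg h]
    have hsum : ∑ l, (2 * φ i j l + 2 * φ j i l)
        = ∑ l, (if l ≠ i ∧ l ≠ j then a i j i l else 0)
          + ∑ l, (if l ≠ i ∧ l ≠ j then a i j j l else 0)
          + ∑ k, (if k ≠ i ∧ k ≠ j then (a i j k i + a i j k j) else 0) := by
      rw [← Finset.sum_add_distrib, ← Finset.sum_add_distrib]
      refine Finset.sum_congr rfl (fun l _ => ?_)
      by_cases h : l ≠ i ∧ l ≠ j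
      · have e1 : φ i j l = a i j j l := by
          simp [hφ, hij, Ne.symm h.2, Ne.symm h.1]
        have e2 : φ j i l = a j i i l := by
          simp [hφ, hji, Ne.symm h.1, Ne.symm h.2]
        rw [if_pos h, if_pos h, if_pos h, e1, e2]
        have q1 : a i j l i = a j i i l := by rw [hs2 i j l i, hs1 i j i l]
        have q2 : a i j l j = a i j j l := hs2 i j l j
        have q3 : a i j i l = a j i i l := hs1 i j i l
        rw [q1, q2, q3]
        ring
      · have e1 : φ i j l = 0 := by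
          simp only [hφ]
          rw [if_neg]
          rintro ⟨_, h2, h3'⟩
          exact h ⟨Ne.symm h3', Ne.symm h2⟩
        have e2 : φ j i l = 0 := by
          simp only [hφ]
          rw [if_neg]
          rintro ⟨_, h2, h3'⟩
          exact h ⟨Ne.symm h2, Ne.symm h3'⟩
        rw [if_neg h, if_neg h, if_neg h, e1, e2]
        simp
    have hsym : a i j j i = a i j i j := hs2 i j j i
    linarith
  -- assemble
  have hR : ∑ i, ∑ j, ∑ k, ∑ l, (if i ≠ j ∧ k ≠ l then a i j k l else 0)
      = ∑ i, ∑ j, (if i ≠ j then ∑ k, ∑ l, (if k ≠ l then a i j k l else 0) else 0) := by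
    refine Finset.sum_congr rfl (fun i _ => Finset.sum_congr rfl (fun j _ => ?_))
    by_cases hij : i ≠ j
    · rw [if_pos hij]
      refine Finset.sum_congr rfl (fun k _ => Finset.sum_congr rfl (fun l _ => ?_))
      by_cases hkl : k ≠ l
      · rw [if_pos ⟨hij, hkl⟩, if_pos hkl]
      · rw [if_neg hkl, if_neg (fun h => hkl h.2)]
    · rw [if_neg hij]
      refine Finset.sum_eq_zero (fun k _ => Finset.sum_eq_zero (fun l _ => ?_))
      rw [if_neg (fun h => hij h.1)]
  have hL : ∑ i, ∑ j, (if i ≠ j then (2 * a i j i j + ∑ l, (2 * φ i j l + 2 * φ j i l)) else 0)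
      ≤ ∑ i, ∑ j, (if i ≠ j then ∑ k, ∑ l, (if k ≠ l then a i j k l else 0) else 0) := by
    refine Finset.sum_le_sum (fun i _ => Finset.sum_le_sum (fun j _ => ?_))
    by_cases hij : i ≠ j
    · rw [if_pos hij, if_pos hij]
      exact hF i j hij
    · rw [if_neg hij, if_neg hij]
  have hφ0 : ∀ i j l, ¬ i ≠ j → φ i j l = 0 := by
    intro i j l h
    simp only [hφ]
    rw [if_neg (fun h' => h h'.1)]
  have hM : ∑ i, ∑ j, (if i ≠ j then (2 * a i j i j + ∑ l, (2 * φ i j l + 2 * φ j i l)) else 0)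
      = 2 * ∑ i, ∑ j, (if i ≠ j then a i j i j else 0)
        + 4 * ∑ i, ∑ j, ∑ l, φ i j l := by
    have e : ∀ i j, (if i ≠ j then (2 * a i j i j + ∑ l, (2 * φ i j l + 2 * φ j i l)) else 0)
        = 2 * (if i ≠ j then a i j i j else 0) + 2 * ∑ l, φ i j l + 2 * ∑ l, φ j i l := by
      intro i j
      by_cases hij : i ≠ j
      · rw [if_pos hij, if_pos hij, Finset.sum_add_distrib, ← Finset.mul_sum, ← Finset.mul_sum]
        ring
      · rw [if_neg hij, if_neg hij]
        have z1 : ∑ l, φ i j l = 0 := Finset.sum_eq_zero (fun l _ => hφ0 i j l hij)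
        have z2 : ∑ l, φ j i l = 0 :=
          Finset.sum_eq_zero (fun l _ => hφ0 j i l (fun h => hij (Ne.symm h)))
        rw [z1, z2]
        ring
    have sw : ∑ i, ∑ j, ∑ l, φ j i l = ∑ i, ∑ j, ∑ l, φ i j l := sum_swap12 φ
    calc ∑ i, ∑ j, (if i ≠ j then (2 * a i j i j + ∑ l, (2 * φ i j l + 2 * φ j i l)) else 0)
        = ∑ i, ∑ j, (2 * (if i ≠ j then a i j i j else 0) + 2 * ∑ l, φ i j l
            + 2 * ∑ l, φ j i l) :=
          Finset.sum_congr rfl (fun i _ => Finset.sum_congr rfl (fun j _ => e i j))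
      _ = 2 * ∑ i, ∑ j, (if i ≠ j then a i j i j else 0) + 2 * ∑ i, ∑ j, ∑ l, φ i j l
            + 2 * ∑ i, ∑ j, ∑ l, φ j i l := by
          simp only [Finset.sum_add_distrib, ← Finset.mul_sum]
      _ = 2 * ∑ i, ∑ j, (if i ≠ j then a i j i j else 0)
            + 4 * ∑ i, ∑ j, ∑ l, φ i j l := by
          rw [sw]
          ring
  rw [hR]
  linarith

end Vale.Agent.H18
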