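import Vale.Agent.H18.KTV.CombTriple

/-!
Pair algebra for the simple-graph switch chain (row R4 of the simple-graph split of P335).

With `a i j k l = <Q_{ij} f, Q_{kl} f>` (`Q_{ij}` the orthogonal projection attached to the
vertex pair `{i,j}`), the triple inequality `K_t^2 >= K_t` (`htri`) and the summed inequality
`Y >= (c/2) K` for the products over disjoint pairs (`hdisj`, in ordered-index form) give
`K_ord^2 >= (2 + c) K_ord` for `K_ord = sum_{i != j} Q_{ij}`.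
-/

namespace Vale.Agent.H18

open Finset

theorem comb_pair {I : Type*} [Fintype I] [DecidableEq I] (a : I → I → I → I → ℝ)
    (hs1 : ∀ i j k l, a i j k l = a j i k l) (hs2 : ∀ i j k l, a i j k l = a i j l k)
    (htri : ∀ i j k, i ≠ j → j ≠ k → i ≠ k → 0 ≤ a i j j k + a j k k i + a k i i j)
    (c : ℝ)
    (hdisj : c * ∑ i, ∑ j, (if i ≠ j then a i j i j else 0) ≤
      ∑ i, ∑ j, ∑ k, ∑ l,
        (if i ≠ j ∧ k ≠ l ∧ i ≠ k ∧ i ≠ l ∧ j ≠ k ∧ j ≠ l then a i j k l else 0)) :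
    (2 + c) * ∑ i, ∑ j, (if i ≠ j then a i j i j else 0) ≤
      ∑ i, ∑ j, ∑ k, ∑ l, (if i ≠ j ∧ k ≠ l then a i j k l else 0) := by
  classical
  set b : I → I → I → I → ℝ := fun i j k l =>
    if i ≠ k ∧ i ≠ l ∧ j ≠ k ∧ j ≠ l then 0 else a i j k l with hb
  have hb1 : ∀ i j k l, b i j k l = b j i k l := by
    intro i j k l
    simp only [hb]
    by_cases h : i ≠ k ∧ i ≠ l ∧ j ≠ k ∧ j ≠ l
    · rw [if_pos h, if_pos ⟨h.2.2.1, h.2.2.2, h.1, h.2.1⟩]
    · rw [if_neg h, if_neg (fun h' => h ⟨h'.2.2.1, h'.2.2.2, h'.1, h'.2.1⟩)]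
      exact hs1 i j k l
  have hb2 : ∀ i j k l, b i j k l = b i j l k := by
    intro i j k l
    simp only [hb]
    by_cases h : i ≠ k ∧ i ≠ l ∧ j ≠ k ∧ j ≠ l
    · rw [if_pos h, if_pos ⟨h.2.1, h.1, h.2.2.2, h.2.2.1⟩]
    · rw [if_neg h, if_neg (fun h' => h ⟨h'.2.1, h'.1, h'.2.2.2, h'.2.2.1⟩)]
      exact hs2 i j k l
  have hbd : ∀ i j k l, i ≠ j → k ≠ l → i ≠ k → i ≠ l → j ≠ k → j ≠ l → 0 ≤ b i j k l := by
    intro i j k l _ _ h1 h2 h3 h4
    simp only [hb]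
    rw [if_pos ⟨h1, h2, h3, h4⟩]
  have hbt : ∀ i j k, i ≠ j → j ≠ k → i ≠ k → 0 ≤ b i j j k + b j k k i + b k i i j := by
    intro i j k h1 h2 h3
    have e1 : b i j j k = a i j j k := by
      simp only [hb]
      rw [if_neg (fun h => h.2.2.1 rfl)]
    have e2 : b j k k i = a j k k i := by
      simp only [hb]
      rw [if_neg (fun h => h.2.2.1 rfl)]
    have e3 : b k i i j = a k i i j := by
      simp only [hb]
      rw [if_neg (fun h => h.2.2.1 rfl)]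
    rw [e1, e2, e3]
    exact htri i j k h1 h2 h3
  have key := comb_triple b hb1 hb2 hbd hbt
  have ediag : ∑ i, ∑ j, (if i ≠ j then b i j i j else 0)
      = ∑ i, ∑ j, (if i ≠ j then a i j i j else 0) := by
    refine Finset.sum_congr rfl (fun i _ => Finset.sum_congr rfl (fun j _ => ?_))
    by_cases hij : i ≠ j
    · rw [if_pos hij, if_pos hij]
      simp only [hb]
      rw [if_neg (fun h => h.1 rfl)]
    · rw [if_neg hij, if_neg hij]
  have esplit : ∑ i, ∑ j, ∑ k, ∑ l, (if i ≠ j ∧ k ≠ l then a i j k l else 0)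
      = ∑ i, ∑ j, ∑ k, ∑ l, (if i ≠ j ∧ k ≠ l then b i j k l else 0)
        + ∑ i, ∑ j, ∑ k, ∑ l,
          (if i ≠ j ∧ k ≠ l ∧ i ≠ k ∧ i ≠ l ∧ j ≠ k ∧ j ≠ l then a i j k l else 0) := by
    simp only [← Finset.sum_add_distrib]
    refine Finset.sum_congr rfl (fun i _ => Finset.sum_congr rfl (fun j _ =>
      Finset.sum_congr rfl (fun k _ => Finset.sum_congr rfl (fun l _ => ?_))))
    by_cases h1 : i ≠ j ∧ k ≠ l
    · rw [if_pos h1, if_pos h1]
      simp only [hb]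
      by_cases h2 : i ≠ k ∧ i ≠ l ∧ j ≠ k ∧ j ≠ l
      · rw [if_pos h2, if_pos ⟨h1.1, h1.2, h2.1, h2.2.1, h2.2.2.1, h2.2.2.2⟩]
        ring
      · rw [if_neg h2, if_neg (fun h => h2 ⟨h.2.2.1, h.2.2.2.1, h.2.2.2.2.1, h.2.2.2.2.2⟩)]
        ring
    · rw [if_neg h1, if_neg h1, if_neg (fun h => h1 ⟨h.1, h.2.1⟩)]
      ring
  rw [ediag] at key
  rw [esplit]
  linarith

end Vale.Agent.H18
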