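import Vale.Agent.H18.KTV.PairAlg
import Vale.Agent.H90.KTV.Abs
import Vale.Agent.H58.KTV.Spec

/-!
Abstract spectral-gap assembly for a family of fibre projections indexed by ordered pairs
(row R5-abstract of the simple-graph split of P335).

`r i j` is an equivalence relation on a finite state space `X` for every pair of indices, symmetric
in `(i, j)`; `projQ (r i j) f = f - avgRel (r i j) f` is the orthogonal projection onto the
functions with zero mean on every class. From the triple inequality (`htri`), the summed
inequality over pairwise distinct index quadruples (`hdisj`) and connectivity (`hconn`), the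
operator `sum_{i != j} projQ (r i j)` has spectral gap at least `2 + c`.
-/

namespace Vale.Agent.H18

open Vale.Agent.H90 Finset

section PairGap

variable {X : Type*} [Fintype X]

/-- The complementary projection of an averaging operator. -/
noncomputable def projQ (rel : X → X → Prop) [DecidableRel rel] (f : X → ℝ) : X → ℝ :=
  f - avgRel rel f

theorem projQ_add (rel : X → X → Prop) [DecidableRel rel] (f g : X → ℝ) :
    projQ rel (f + g) = projQ rel f + projQ rel g := by
  unfold projQ
  rw [avgRel_add]
  abel

theorem projQ_smul (rel : X → X → Prop) [DecidableRel rel] (c : ℝ) (f : X → ℝ) :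
    projQ rel (c • f) = c • projQ rel f := by
  unfold projQ
  rw [avgRel_smul, smul_sub]

theorem projQ_dot {rel : X → X → Prop} [DecidableRel rel] (h : Equivalence rel) (f g : X → ℝ) :
    dot f (projQ rel g) = dot (projQ rel f) g := by
  unfold projQ
  rw [dot_sub_right, dot_sub_left, avgRel_dot h]

theorem projQ_idem {rel : X → X → Prop} [DecidableRel rel] (h : Equivalence rel) (f : X → ℝ) :
    projQ rel (projQ rel f) = projQ rel f := by
  unfold projQ
  rw [avgRel_sub, avgRel_idem h]
  simp

/-- `<Q f, Q f> = <f, Q f>` for the projection `Q = projQ rel`. -/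
theorem projQ_dot_self {rel : X → X → Prop} [DecidableRel rel] (h : Equivalence rel)
    (f : X → ℝ) : dot (projQ rel f) (projQ rel f) = dot f (projQ rel f) := by
  rw [← projQ_dot h, projQ_idem h]

theorem projQ_congr (rel rel' : X → X → Prop) [DecidableRel rel] [DecidableRel rel']
    (h : ∀ x y, rel x y ↔ rel' x y) (f : X → ℝ) : projQ rel f = projQ rel' f := by
  unfold projQ
  rw [avgRel_congr rel rel' h]

/-- If `projQ rel f = 0` then `f` is constant on the classes of `rel`. -/
theorem const_of_projQ_eq_zero {rel : X → X → Prop} [DecidableRel rel] (h : Equivalence rel)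
    (f : X → ℝ) (h0 : projQ rel f = 0) {x y : X} (hxy : rel x y) : f x = f y := by
  have e : f = avgRel rel f := by
    unfold projQ at h0
    exact sub_eq_zero.1 h0
  rw [e]
  exact avgRel_of_rel h f hxy

variable {V : Type*} [Fintype V] [DecidableEq V]

/-- **Abstract gap assembly, core form**: `f` is assumed orthogonal to every function that is
constant on all the fibres. -/
theorem gap_core (r : V → V → X → X → Prop) [∀ i j, DecidableRel (r i j)]
    (hr : ∀ i j, Equivalence (r i j))
    (hsymm : ∀ i j x y, r i j x y ↔ r j i x y)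
    (c : ℝ)
    (htri : ∀ (f : X → ℝ) (i j k : V), i ≠ j → j ≠ k → i ≠ k →
      0 ≤ dot (projQ (r i j) f) (projQ (r j k) f) + dot (projQ (r j k) f) (projQ (r k i) f)
        + dot (projQ (r k i) f) (projQ (r i j) f))
    (hdisj : ∀ f : X → ℝ,
      c * ∑ i, ∑ j, (if i ≠ j then dot (projQ (r i j) f) (projQ (r i j) f) else 0) ≤
        ∑ i, ∑ j, ∑ k, ∑ l,
          (if i ≠ j ∧ k ≠ l ∧ i ≠ k ∧ i ≠ l ∧ j ≠ k ∧ j ≠ l then
            dot (projQ (r i j) f) (projQ (r k l) f) else 0))
    (f : X → ℝ)
    (hkerf : ∀ g : X → ℝ, (∀ i j x y, i ≠ j → r i j x y → g x = g y) → dot f g = 0) :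
    (2 + c) * dot f f ≤ ∑ i, ∑ j, (if i ≠ j then dot (projQ (r i j) f) (projQ (r i j) f) else 0) := by
  classical
  -- the summands and the operator
  set B : V → V → (X → ℝ) → (X → ℝ) := fun i j g => if i ≠ j then projQ (r i j) g else 0 with hB
  set A : (X → ℝ) → (X → ℝ) := fun g => ∑ i, ∑ j, B i j g with hA
  have hBadd : ∀ i j g h, B i j (g + h) = B i j g + B i j h := by
    intro i j g h
    simp only [hB]
    by_cases hij : i ≠ j
    · rw [if_pos hij, if_pos hij, if_pos hij, projQ_add]
    · rw [if_neg hij, if_neg hij, if_neg hij, add_zero]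
  have hBsmul : ∀ i j (t : ℝ) g, B i j (t • g) = t • B i j g := by
    intro i j t g
    simp only [hB]
    by_cases hij : i ≠ j
    · rw [if_pos hij, if_pos hij, projQ_smul]
    · rw [if_neg hij, if_neg hij, smul_zero]
  have hBsym : ∀ i j g h, dot g (B i j h) = dot (B i j g) h := by
    intro i j g h
    simp only [hB]
    by_cases hij : i ≠ j
    · rw [if_pos hij, if_pos hij, projQ_dot (hr i j)]
    · rw [if_neg hij, if_neg hij, dot_zero_left, dot_zero_right]
  have hBB : ∀ i j k l g, dot (B i j g) (B k l g)
      = if i ≠ j ∧ k ≠ l then dot (projQ (r i j) g) (projQ (r k l) g) else 0 := by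
    intro i j k l g
    simp only [hB]
    by_cases hij : i ≠ j
    · by_cases hkl : k ≠ l
      · rw [if_pos hij, if_pos hkl, if_pos ⟨hij, hkl⟩]
      · rw [if_neg hkl, if_neg (fun h : i ≠ j ∧ k ≠ l => hkl h.2), dot_zero_right]
    · rw [if_neg hij, if_neg (fun h : i ≠ j ∧ k ≠ l => hij h.1), dot_zero_left]
  have hBself : ∀ i j g, dot g (B i j g)
      = if i ≠ j then dot (projQ (r i j) g) (projQ (r i j) g) else 0 := by
    intro i j g
    simp only [hB]
    by_cases hij : i ≠ j
    · rw [if_pos hij, if_pos hij, projQ_dot_self (hr i j)]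
    · rw [if_neg hij, if_neg hij, dot_zero_right]
  have hadd : ∀ g h, A (g + h) = A g + A h := by
    intro g h
    simp only [hA]
    rw [← Finset.sum_add_distrib]
    refine Finset.sum_congr rfl (fun i _ => ?_)
    rw [← Finset.sum_add_distrib]
    exact Finset.sum_congr rfl (fun j _ => hBadd i j g h)
  have hsmul : ∀ (t : ℝ) g, A (t • g) = t • A g := by
    intro t g
    simp only [hA]
    rw [Finset.smul_sum]
    refine Finset.sum_congr rfl (fun i _ => ?_)
    rw [Finset.smul_sum]
    exact Finset.sum_congr rfl (fun j _ => hBsmul i j t g)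
  have hdotA : ∀ g h, dot g (A h) = ∑ i, ∑ j, dot g (B i j h) := by
    intro g h
    simp only [hA]
    rw [dot_sum_right]
    exact Finset.sum_congr rfl (fun i _ => dot_sum_right _ _ _)
  have hAdot : ∀ g h, dot (A g) h = ∑ i, ∑ j, dot (B i j g) h := by
    intro g h
    simp only [hA]
    rw [dot_sum_left]
    exact Finset.sum_congr rfl (fun i _ => dot_sum_left _ _ _)
  have hsym : ∀ g h, dot g (A h) = dot (A g) h := by
    intro g h
    rw [hdotA, hAdot]
    exact Finset.sum_congr rfl (fun i _ => Finset.sum_congr rfl (fun j _ => hBsym i j g h))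
  -- the quadratic form and the square
  have hform : ∀ g, dot g (A g)
      = ∑ i, ∑ j, (if i ≠ j then dot (projQ (r i j) g) (projQ (r i j) g) else 0) := by
    intro g
    rw [hdotA]
    exact Finset.sum_congr rfl (fun i _ => Finset.sum_congr rfl (fun j _ => hBself i j g))
  have hsq : ∀ g, dot (A g) (A g)
      = ∑ i, ∑ j, ∑ k, ∑ l,
          (if i ≠ j ∧ k ≠ l then dot (projQ (r i j) g) (projQ (r k l) g) else 0) := by
    intro g
    rw [hAdot]
    refine Finset.sum_congr rfl (fun i _ => Finset.sum_congr rfl (fun j _ => ?_))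
    rw [hdotA]
    exact Finset.sum_congr rfl (fun k _ => Finset.sum_congr rfl (fun l _ => hBB i j k l g))
  have hformnn : ∀ g, 0 ≤ dot g (A g) := by
    intro g
    rw [hform]
    refine Finset.sum_nonneg (fun i _ => Finset.sum_nonneg (fun j _ => ?_))
    by_cases hij : i ≠ j
    · rw [if_pos hij]; exact dot_self_nonneg _
    · rw [if_neg hij]
  -- the operator inequality from the pair algebra
  have hcomb : ∀ g, (2 + c) * dot g (A g) ≤ dot (A g) (A g) := by
    intro g
    rw [hform, hsq]
    refine comb_pair (fun i j k l => dot (projQ (r i j) g) (projQ (r k l) g)) ?_ ?_ ?_ c (hdisj g)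
    · intro i j k l
      show dot (projQ (r i j) g) (projQ (r k l) g) = dot (projQ (r j i) g) (projQ (r k l) g)
      rw [projQ_congr (r i j) (r j i) (hsymm i j)]
    · intro i j k l
      show dot (projQ (r i j) g) (projQ (r k l) g) = dot (projQ (r i j) g) (projQ (r l k) g)
      rw [projQ_congr (r k l) (r l k) (hsymm k l)]
    · intro i j k h1 h2 h3
      exact htri g i j k h1 h2 h3
  -- eigenvalues
  have heig : ∀ (μ : ℝ) (g : X → ℝ), g ≠ 0 → A g = μ • g → μ = 0 ∨ (2 + c) ≤ μ := by
    intro μ g hg hAg
    have hpos : 0 < dot g g := by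
      rcases (dot_self_nonneg g).lt_or_eq with h | h
      · exact h
      · exact absurd (dot_self_eq_zero h.symm) hg
    have h1 := hcomb g
    have h2 := hformnn g
    rw [hAg, dot_smul_left, dot_smul_right] at h1
    rw [hAg, dot_smul_right] at h2
    have hμ : 0 ≤ μ := by
      by_contra hneg
      rw [not_le] at hneg
      nlinarith
    rcases hμ.lt_or_eq with h | h
    · right
      have : (2 + c) * μ ≤ μ * μ := by
        have h3 : ((2 + c) * μ - μ * μ) * dot g g ≤ 0 := by nlinarith
        by_contra hcon
        rw [not_le] at hcon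
        nlinarith
      by_contra hcon
      rw [not_le] at hcon
      nlinarith
    · left; exact h.symm
  -- kernel
  have hker : ∀ g, A g = 0 → dot f g = 0 := by
    intro g hAg
    have h0 : dot g (A g) = 0 := by rw [hAg, dot_zero_right]
    rw [hform] at h0
    have hterm : ∀ i j, i ≠ j → projQ (r i j) g = 0 := by
      intro i j hij
      have hnn : ∀ i ∈ (univ : Finset V), 0 ≤ ∑ j,
          (if i ≠ j then dot (projQ (r i j) g) (projQ (r i j) g) else 0) := by
        intro i _
        refine Finset.sum_nonneg (fun j _ => ?_)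
        by_cases hij : i ≠ j
        · rw [if_pos hij]; exact dot_self_nonneg _
        · rw [if_neg hij]
      have h1 := (Finset.sum_eq_zero_iff_of_nonneg hnn).1 h0 i (Finset.mem_univ i)
      have hnn2 : ∀ j ∈ (univ : Finset V), 0 ≤
          (if i ≠ j then dot (projQ (r i j) g) (projQ (r i j) g) else 0) := by
        intro j _
        by_cases hij : i ≠ j
        · rw [if_pos hij]; exact dot_self_nonneg _
        · rw [if_neg hij]
      have h2 := (Finset.sum_eq_zero_iff_of_nonneg hnn2).1 h1 j (Finset.mem_univ j)
      rw [if_pos hij] at h2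
      exact dot_self_eq_zero h2
    exact hkerf g
      (fun i j x y hij hxy => const_of_projQ_eq_zero (hr i j) g (hterm i j hij) hxy)
  have hfin := Vale.Agent.H58.spec_gap A hadd hsmul hsym (2 + c) heig f hker
  rw [hform] at hfin
  exact hfin

/-- **Abstract gap assembly, connected form**: if the only functions constant on all fibres are
the constants, the gap inequality holds for every mean-zero function. -/
theorem gap_of_pair_ineq (r : V → V → X → X → Prop) [∀ i j, DecidableRel (r i j)]
    (hr : ∀ i j, Equivalence (r i j))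
    (hsymm : ∀ i j x y, r i j x y ↔ r j i x y)
    (c : ℝ)
    (htri : ∀ (f : X → ℝ) (i j k : V), i ≠ j → j ≠ k → i ≠ k →
      0 ≤ dot (projQ (r i j) f) (projQ (r j k) f) + dot (projQ (r j k) f) (projQ (r k i) f)
        + dot (projQ (r k i) f) (projQ (r i j) f))
    (hdisj : ∀ f : X → ℝ,
      c * ∑ i, ∑ j, (if i ≠ j then dot (projQ (r i j) f) (projQ (r i j) f) else 0) ≤
        ∑ i, ∑ j, ∑ k, ∑ l,
          (if i ≠ j ∧ k ≠ l ∧ i ≠ k ∧ i ≠ l ∧ j ≠ k ∧ j ≠ l then
            dot (projQ (r i j) f) (projQ (r k l) f) else 0))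
    (hconn : ∀ f : X → ℝ, (∀ i j x y, i ≠ j → r i j x y → f x = f y) → ∀ x y, f x = f y)
    (f : X → ℝ) (hf : ∑ x, f x = 0) :
    (2 + c) * dot f f ≤ ∑ i, ∑ j, (if i ≠ j then dot (projQ (r i j) f) (projQ (r i j) f) else 0) := by
  refine gap_core r hr hsymm c htri hdisj f (fun g hg => ?_)
  have hconst : ∀ x y, g x = g y := hconn g hg
  unfold dot
  by_cases hX : Nonempty X
  · obtain ⟨x0⟩ := hX
    have : ∑ x, f x * g x = (∑ x, f x) * g x0 := by
      rw [Finset.sum_mul]
      exact Finset.sum_congr rfl (fun x _ => by rw [hconst x x0])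
    rw [this, hf, zero_mul]
  · rw [not_nonempty_iff] at hX
    simp

/-- **Abstract gap assembly, class form**: `rel` is a coarser equivalence relation (the classes
of the state space, e.g. the degree classes) such that a function constant on all fibres is
constant on the classes of `rel`. Then for EVERY function the distance to its class averages is
controlled by the fibre variances. -/
theorem gap_of_pair_ineq_rel (r : V → V → X → X → Prop) [∀ i j, DecidableRel (r i j)]
    (hr : ∀ i j, Equivalence (r i j))
    (hsymm : ∀ i j x y, r i j x y ↔ r j i x y)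
    (c : ℝ)
    (htri : ∀ (f : X → ℝ) (i j k : V), i ≠ j → j ≠ k → i ≠ k →
      0 ≤ dot (projQ (r i j) f) (projQ (r j k) f) + dot (projQ (r j k) f) (projQ (r k i) f)
        + dot (projQ (r k i) f) (projQ (r i j) f))
    (hdisj : ∀ f : X → ℝ,
      c * ∑ i, ∑ j, (if i ≠ j then dot (projQ (r i j) f) (projQ (r i j) f) else 0) ≤
        ∑ i, ∑ j, ∑ k, ∑ l,
          (if i ≠ j ∧ k ≠ l ∧ i ≠ k ∧ i ≠ l ∧ j ≠ k ∧ j ≠ l then
            dot (projQ (r i j) f) (projQ (r k l) f) else 0))
    (rel : X → X → Prop) [DecidableRel rel] (hrel : Equivalence rel)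
    (hsub : ∀ i j x y, r i j x y → rel x y)
    (hconn : ∀ g : X → ℝ, (∀ i j x y, i ≠ j → r i j x y → g x = g y) →
      ∀ x y, rel x y → g x = g y)
    (f : X → ℝ) :
    (2 + c) * dot (projQ rel f) (projQ rel f) ≤
      ∑ i, ∑ j, (if i ≠ j then dot (projQ (r i j) f) (projQ (r i j) f) else 0) := by
  have hker : ∀ g : X → ℝ, (∀ i j x y, i ≠ j → r i j x y → g x = g y) →
      dot (projQ rel f) g = 0 := by
    intro g hg
    have hg' : avgRel rel g = g := avgRel_eq_self hrel g (hconn g hg)
    rw [← projQ_dot hrel]
    unfold projQ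
    rw [hg', sub_self, dot_zero_right]
  have key := gap_core r hr hsymm c htri hdisj (projQ rel f) hker
  have hQ : ∀ i j, projQ (r i j) (projQ rel f) = projQ (r i j) f := by
    intro i j
    have h1 : avgRel (r i j) (avgRel rel f) = avgRel rel f :=
      avgRel_eq_self (hr i j) _ (fun x y hxy => avgRel_of_rel hrel f (hsub i j x y hxy))
    unfold projQ
    rw [avgRel_sub, h1]
    abel
  simp only [hQ] at key
  exact key

end PairGap

end Vale.Agent.H18
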